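import Vale.Agent.P329h2.Trans

/-!
# P329: automata that become counter-free after deleting `n` states have generalized star height
at most `n`; symmetric groups, alternating groups and full transformation monoids at height one
-/

namespace Vale.Agent.Results.P329.CounterFreeDeletion

open Vale.Agent.P329

theorem result :
    -- deletion theorem
    (∀ (α X : Type) [Finite α] [Finite X] (f : α → X → X) (E : Finset X),
      AperOff f (E : Set X) → ∀ S : Set (X → X), HLe E.card {w : List α | act f w ∈ S}) ∧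
    -- symmetric groups, over two letters
    (∀ n : ℕ, 2 ≤ n → ∃ f : Bool → Equiv.Perm (Fin n),
      Subgroup.closure (Set.range f) = ⊤ ∧
      (∀ S : Set (Equiv.Perm (Fin n)), HLe 1 {w : List Bool | (w.map f).prod ∈ S}) ∧
      ¬ HLe 0 {w : List Bool | (w.map f).prod = 1}) ∧
    -- alternating groups
    (∀ n : ℕ, 3 ≤ n → ∃ (α : Type) (_ : Finite α) (f : α → Equiv.Perm (Fin n)),
      Subgroup.closure (Set.range f) = alternatingGroup (Fin n) ∧
      (∀ S : Set (Equiv.Perm (Fin n)), HLe 1 {w : List α | (w.map f).prod ∈ S}) ∧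
      ¬ HLe 0 {w : List α | (w.map f).prod = 1}) ∧
    -- full transformation monoids, over three letters
    (∀ n : ℕ, 2 ≤ n → ∃ f : Option Bool → Fin n → Fin n,
      (∀ g : Fin n → Fin n, ∃ w, act f w = g) ∧
      ∀ S : Set (Fin n → Fin n), HLe 1 {w : List (Option Bool) | act f w ∈ S}) ∧
    -- every regular language is an inverse image of a language of height at most one
    (∀ (α M : Type) [Monoid M] [Finite M] (φ : α → M) (P : Set M),
      ∃ (h : α → List (Option Bool)) (K : Set (List (Option Bool))), HLe 1 K ∧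
        ∀ w : List α, (w.map φ).prod ∈ P ↔ (w.map h).flatten ∈ K) := by
  refine ⟨fun α X _ _ f E h S => upper E h S, fun n hn => ?_, fun n hn => ?_, fun n hn => ?_,
    fun α M _ _ φ P => inverse_image φ P⟩
  · obtain ⟨m, rfl⟩ : ∃ m, n = m + 2 := ⟨n - 2, by omega⟩
    refine ⟨fS m, closure_fS m, hle_one_of_ordOff (fS m) (ordOff_fS m), ?_⟩
    refine not_hle_zero (fS m) ⟨false, ?_⟩
    intro h
    have h1 := congrArg (fun σ : Equiv.Perm (Fin (m + 2)) => σ 0) h
    change Equiv.swap (0 : Fin (m + 2)) 1 0 = 0 at h1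
    rw [Equiv.swap_apply_left] at h1
    exact one_ne_zero h1
  · obtain ⟨m, rfl⟩ : ∃ m, n = m + 3 := ⟨n - 3, by omega⟩
    refine ⟨Fin (m + 1) × Bool, inferInstance, fA m, closure_fA m,
      hle_one_of_ordOff (fA m) (ordOff_fA m), ?_⟩
    refine not_hle_zero (fA m) ⟨(0, true), ?_⟩
    intro h
    have h1 := congrArg (fun σ : Equiv.Perm (Fin (m + 3)) => σ 0) h
    change (Equiv.swap (0 : Fin (m + 3)) (0 : Fin (m + 1)).castSucc.succ *
      Equiv.swap 0 (0 : Fin (m + 1)).succ.succ) 0 = 0 at h1
    rw [Equiv.Perm.mul_apply, Equiv.swap_apply_left, Equiv.swap_apply_of_ne_of_ne] at h1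
    · exact absurd h1 (Fin.succ_ne_zero _)
    · exact Fin.succ_ne_zero _
    · intro h2
      have := congrArg Fin.val h2
      simp only [Fin.val_succ, Fin.val_castSucc, Fin.val_zero] at this
      omega
  · obtain ⟨m, rfl⟩ : ∃ m, n = m + 2 := ⟨n - 2, by omega⟩
    exact ⟨fT m, act_surj m, hle_one_act (fT m) (ordOff_fT m)⟩

end Vale.Agent.Results.P329.CounterFreeDeletion
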